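import Vale.Agent.P161.Conv

open MeasureTheory Vale.Agent.P161

/-- On the `d`-regular tree, `d ≥ 3`, the free Ising measure exists, and it is a factor of IID
exactly when `tanh β ≤ (d-1)^(-1/2)`. -/
theorem Vale.Agent.Results.P161.Answer.result {V : Type*} (G : SimpleGraph V)
    [G.LocallyFinite] (d : ℕ) (hd : 3 ≤ d) (hG : G.IsTree) (hreg : G.IsRegularOfDegree d)
    (β : ℝ) (hβ : 0 ≤ β) :
    (∃ μ, IsFreeIsing G (Real.tanh β) μ) ∧
      ∀ μ, IsFreeIsing G (Real.tanh β) μ →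
        (IsFactorOfIID G μ ↔ Real.tanh β ≤ ((d : ℝ) - 1) ^ (-1 / 2 : ℝ)) := by
  obtain ⟨b, rfl⟩ : ∃ b, d = b + 1 := ⟨d - 1, by omega⟩
  have h0 : 0 ≤ Real.tanh β := by
    rw [Real.tanh_eq_sinh_div_cosh]
    exact div_nonneg (Real.sinh_nonneg_iff.2 hβ) (Real.cosh_pos β).le
  have h1 := Real.tanh_lt_one β
  have b0 : (0 : ℝ) < b := by exact_mod_cast (by omega : 0 < b)
  have e : Real.tanh β ≤ (((b + 1 : ℕ) : ℝ) - 1) ^ (-1 / 2 : ℝ) ↔ b * Real.tanh β ^ 2 ≤ 1 := by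
    rw [Nat.cast_succ, add_sub_cancel_right, ← sq_le_sq₀ h0 (by positivity), ← Real.rpow_natCast
      (_ ^ _), ← Real.rpow_mul b0.le, ← le_div_iff₀' b0]
    norm_num [Real.rpow_neg_one]
  refine ⟨⟨_, isFree_mu hG h0 h1⟩, fun ν hν => ?_⟩
  rw [e, ← free_unique hG.connected (isFree_mu hG h0 h1) hν]
  refine ⟨fun h => not_lt.1 fun h' => not_factor hG h0 h1 hreg h' h, fun h => ?_⟩
  rcases h.lt_or_eq with h | h
  · obtain ⟨μ, h2, h3⟩ := exists_factor hG (d := b) (fun v => (hreg v).le) (by omega) h0 h1 h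
    exact free_unique hG.connected h2 (isFree_mu hG h0 h1) ▸ h3
  · exact critical_factor hG h0 h1 (by omega) h hreg
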