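import Vale.Agent.P161.Sub

open MeasureTheory Vale.Agent.P161

/-- On the `d`-regular tree, `d ≥ 3`, the free Ising measure exists and is a factor of IID
whenever `tanh β < (d-1)^(-1/2)`. -/
theorem Vale.Agent.Results.P161.Subcritical.result {V : Type*} (G : SimpleGraph V)
    [G.LocallyFinite] (d : ℕ) (hd : 3 ≤ d) (hG : G.IsTree) (hreg : G.IsRegularOfDegree d)
    (β : ℝ) (hβ : 0 ≤ β) (h : ((d : ℝ) - 1) * Real.tanh β ^ 2 < 1) :
    (∃ μ, IsFreeIsing G (Real.tanh β) μ) ∧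
      ∀ μ, IsFreeIsing G (Real.tanh β) μ → IsFactorOfIID G μ := by
  obtain ⟨b, rfl⟩ : ∃ b, d = b + 1 := ⟨d - 1, by omega⟩
  have h0 : 0 ≤ Real.tanh β := by
    rw [Real.tanh_eq_sinh_div_cosh]
    exact div_nonneg (Real.sinh_nonneg_iff.2 hβ) (Real.cosh_pos β).le
  obtain ⟨μ, h1, h2⟩ := exists_factor hG (d := b) (fun v => (hreg v).le) (by omega) h0
    (Real.tanh_lt_one β) (by simpa using h)
  exact ⟨⟨μ, h1⟩, fun ν hν => free_unique hG.connected h1 hν ▸ h2⟩
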